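import Vale.Agent.P369.Main
import Vale.Agent.P369.ExistBS
import Vale.Agent.P369.ExistOp

open Vale.Agent.P369

namespace Vale.Agent.Results.P369.EPnI

theorem result (n : ℕ) (hn : 1 ≤ n) (η : ℝ) (h0 : 0 ≤ η) (h1 : η ≤ 1) (ρA ρB : Op (Idx n))
    (hA : IsState ρA) (hB : IsState ρB) (eA : FiniteEnergy ρA) (eB : FiniteEnergy ρB) :
    (∃ (U σ : Op (Idx n × Idx n)) (ρC : Op (Idx n)), IsBeamSplitter η U ∧ IsTensor σ ρA ρB ∧
      IsMarginal ρC (conjOp U σ) ∧ IsState ρC) ∧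
    ∀ (U σ : Op (Idx n × Idx n)) (ρC : Op (Idx n)), IsBeamSplitter η U → IsTensor σ ρA ρB →
      IsMarginal ρC (conjOp U σ) → η * photon ρA + (1 - η) * photon ρB ≤ photon ρC := by
  refine ⟨?_, fun U σ ρC hU hσ hC => epni hn h0 h1 hA hB eA eB hU hσ hC⟩
  obtain ⟨U, hU⟩ := exists_bs n h0 h1
  obtain ⟨σ, s1, s2⟩ := exists_tensor hA hB
  obtain ⟨ρC, c1, c2⟩ := exists_marginal (s1.conj hU.unit)
  exact ⟨U, σ, ρC, hU, s2, c2, c1⟩

end Vale.Agent.Results.P369.EPnI
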